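import Mathlib
import Vale.Agent.P125.PolyZ94.Defs58

set_option linter.unusedSectionVars false
set_option linter.unusedVariables false

/-! # P125 Poly: step REM (remainder of the block decomposition), helper94 -/

namespace Vale.Agent.P125.Poly

open scoped BigOperators
open Vale.Agent.P125.Dich

theorem stRem_94 (hs : StSmall) (h1 : StTriv1) : StRem := by
  intro S _ _ μ P hc hL n f m ρ
  obtain ⟨hom0, homsum, hlb0, hl20, hl2U, hlbU, hU0, hFell, hwsym, hellsym⟩ :=
    hs S μ P hc hL n f
  have hT := h1 S μ P hc hL n f
  obtain ⟨T, hTd⟩ : ∃ T : S → ℝ,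
      T = fun b => ∑ i ∈ Finset.range ρ, op P (m + i) (lbar P f) b := ⟨_, rfl⟩
  have hAk : ∀ k b, Ak P f (m + ρ) k b ≤ Ak P f m k b + T b := by
    intro k b
    have e1 : Ak P f (m + ρ) k b =
        ∑ z, (P ^ m) b z * ∑ y, (P ^ ρ) z y * |F f k y - F f k b| := by
      unfold Ak
      simp only [hL.pw_add m ρ, Finset.sum_mul, Finset.mul_sum]
      rw [Finset.sum_comm]
      refine Finset.sum_congr rfl fun z _ => Finset.sum_congr rfl fun y _ => by ring
    rw [e1]
    have e2 : ∀ z, ∑ y, (P ^ ρ) z y * |F f k y - F f k b| ≤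
        |F f k z - F f k b| + Ak P f ρ k z := by
      intro z
      calc ∑ y, (P ^ ρ) z y * |F f k y - F f k b|
          ≤ ∑ y, (P ^ ρ) z y * (|F f k z - F f k b| + |F f k y - F f k z|) := by
            refine Finset.sum_le_sum fun y _ =>
              mul_le_mul_of_nonneg_left ?_ (hL.pw_nonneg ρ z y)
            have : F f k y - F f k b = (F f k z - F f k b) + (F f k y - F f k z) := by ring
            rw [this]
            exact abs_add_le _ _
        _ = |F f k z - F f k b| + Ak P f ρ k z := by
            unfold Ak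
            simp only [mul_add]
            rw [Finset.sum_add_distrib, ← Finset.sum_mul, hL.pw_sum ρ z, one_mul]
    calc ∑ z, (P ^ m) b z * ∑ y, (P ^ ρ) z y * |F f k y - F f k b|
        ≤ ∑ z, (P ^ m) b z *
            (|F f k z - F f k b| + ∑ i ∈ Finset.range ρ, op P i (lbar P f) z) := by
          refine Finset.sum_le_sum fun z _ =>
            mul_le_mul_of_nonneg_left ?_ (hL.pw_nonneg m b z)
          exact (e2 z).trans (add_le_add le_rfl (hT k ρ z))
      _ = Ak P f m k b + T b := by
          simp only [mul_add]
          rw [Finset.sum_add_distrib]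
          congr 1
          have h2 := hL.op_sum ℕ (Finset.range ρ) m (fun i y => op P i (lbar P f) y) b
          have h3 : op P m (fun y => ∑ i ∈ Finset.range ρ, op P i (lbar P f) y) b =
              ∑ z, (P ^ m) b z * ∑ i ∈ Finset.range ρ, op P i (lbar P f) z := rfl
          rw [← h3, h2, hTd]
          refine Finset.sum_congr rfl fun i _ => ?_
          exact congrFun (hL.op_op m i (lbar P f)) b
  -- sum over k
  have hQ : Qsum μ P f (m + ρ) ≤ Qsum μ P f m + av μ (fun b => lbar P f b * T b) := by
    have e3 : av μ (fun b => lbar P f b * T b) = ∑ k, av μ (fun b => om P f k b * T b) := by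
      unfold av
      rw [Finset.sum_comm]
      refine Finset.sum_congr rfl fun b _ => ?_
      beta_reduce
      rw [← homsum b, Finset.sum_mul, Finset.mul_sum]
    rw [e3]
    unfold Qsum Qk
    rw [← Finset.sum_add_distrib]
    refine Finset.sum_le_sum fun k _ => ?_
    have e4 : av μ (fun b => om P f k b * Ak P f m k b) + av μ (fun b => om P f k b * T b) =
        av μ (fun b => om P f k b * (Ak P f m k b + T b)) := by
      unfold av
      rw [← Finset.sum_add_distrib]
      refine Finset.sum_congr rfl fun b _ => by ring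
    rw [e4]
    exact hL.av_mono _ _ fun b => mul_le_mul_of_nonneg_left (hAk k b) (hom0 k b)
  -- each term is at most U
  have hterm : ∀ j, av μ (fun b => lbar P f b * op P j (lbar P f) b) ≤ U μ P f := by
    intro j
    have c1 := hL.av_cs (lbar P f) (op P j (lbar P f))
    have c2 : av μ (fun x => op P j (lbar P f) x ^ 2) ≤ U μ P f := by
      calc av μ (fun x => op P j (lbar P f) x ^ 2)
          ≤ av μ (op P j (fun y => lbar P f y ^ 2)) :=
            hL.av_mono _ _ fun x => hL.sq_op j (lbar P f) x
        _ = av μ (fun y => lbar P f y ^ 2) := hL.av_op j _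
        _ ≤ U μ P f := hlbU
    calc av μ (fun b => lbar P f b * op P j (lbar P f) b)
        ≤ Real.sqrt (av μ (fun x => lbar P f x ^ 2)) *
            Real.sqrt (av μ (fun x => op P j (lbar P f) x ^ 2)) := c1
      _ ≤ Real.sqrt (U μ P f) * Real.sqrt (U μ P f) :=
          mul_le_mul (Real.sqrt_le_sqrt hlbU) (Real.sqrt_le_sqrt c2) (Real.sqrt_nonneg _)
            (Real.sqrt_nonneg _)
      _ = U μ P f := Real.mul_self_sqrt hU0
  have hTav : av μ (fun b => lbar P f b * T b) ≤ ρ * U μ P f := by
    have e5 : av μ (fun b => lbar P f b * T b) =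
        ∑ i ∈ Finset.range ρ, av μ (fun b => lbar P f b * op P (m + i) (lbar P f) b) := by
      unfold av
      rw [Finset.sum_comm, hTd]
      refine Finset.sum_congr rfl fun b _ => ?_
      beta_reduce
      rw [Finset.mul_sum, Finset.mul_sum]
    rw [e5]
    calc ∑ i ∈ Finset.range ρ, av μ (fun b => lbar P f b * op P (m + i) (lbar P f) b)
        ≤ ∑ i ∈ Finset.range ρ, U μ P f := Finset.sum_le_sum fun i _ => hterm (m + i)
      _ = ρ * U μ P f := by
          rw [Finset.sum_const, Finset.card_range, nsmul_eq_mul]
  linarith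

end Vale.Agent.P125.Poly
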