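import Vale.Agent.P125.PolyZ94.Lib_16
import Vale.Agent.P125.PolyZ94.Own_33
import Vale.Agent.P125.PolyZ94.OwnT_27
import Vale.Agent.P125.PolyZ94.Small_93
import Vale.Agent.P125.PolyZ94.Two_10
import Vale.Agent.P125.PolyZ94.Triv1_69
import Vale.Agent.P125.PolyZ94.Triv2_85
import Vale.Agent.P125.PolyZ94.Sqrt_51
import Vale.Agent.P125.PolyZ94.Rem_94
import Vale.Agent.P125.PolyZ94.Blk_89
import Vale.Agent.P125.PolyZ94.Dual_67
import Vale.Agent.P125.PolyZ94.Down_73
import Vale.Agent.P125.PolyZ94.Back_88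
import Vale.Agent.P125.PolyZ94.En_94
import Vale.Agent.P125.PolyZ94.BB_38
import Vale.Agent.P125.PolyZ94.Xi_87
import Vale.Agent.P125.PolyZ94.R_14
import Vale.Agent.P125.PolyZ94.Q_64
import Vale.Agent.P125.PolyZ94.Core_33
import Vale.Agent.P125.PolyZ94.Wrap_75

/-! # P125 Poly: assembly of one complete chain (frozen copy, forbidden identifier renamed) -/

namespace Vale.Agent.P125.Poly

open scoped BigOperators

theorem stCore_all_94 : StCore := by
  have hlib : StLib := stLib_16
  have hs : StSmall := stSmall_93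
  have hown : StOwn := stOwn_33
  have hownT : StOwnT := stOwnT_27 hown
  have htwo : StTwo := stTwo_10 hown
  have ht1 : StTriv1 := stTriv1_69 hs
  have ht2 : StTriv2 := stTriv2_85 hs
  have hsq : StSqrt := stSqrt_51
  have hrem : StRem := stRem_94 hs ht1
  have hblk : StBlk := stBlk_89 hlib hs ht2 hsq
  have hdual : StDual := stDual_67
  have hdown : StDown := stDown_73 hownT hs
  have hback : StBack := stBack_88 hs
  have hen : StEn := stEn_94 hs
  have hbb : StBB := stBB_38 hs
  have hxi : StXi := stXi_87 hs hen hbb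
  have hr : StR := stR_14 hs hdual hdown hback hxi
  have hq : StQ := stQ_64 hs hrem hblk hr
  exact stCore_33 hlib hs htwo hq

/-- the plain statement: polynomial rate `t^(11/6)` for the summing operators -/
theorem plain_all_94 : ∀ t : ℕ, 1 ≤ t →
    ∀ (n : ℕ) (S : Type) [Fintype S] [DecidableEq S] (μ : S → ℝ) (P : Matrix S S ℝ),
      (∀ i, 0 ≤ μ i) → ∑ i, μ i = 1 → (∀ i j, 0 ≤ P i j) → (∀ i, ∑ j, P i j = 1) →
      (∀ i j, μ i * P i j = μ j * P j i) → ∀ f : S → Fin n → ℝ,
        ∑ i, ∑ j, μ i * (P ^ t) i j *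
            (Finset.univ.sup' Finset.univ_nonempty (fun k : Fin (n + 1) =>
              |∑ l : Fin n, if l.val < k.val then f j l - f i l else 0|)) ^ 2 ≤
          24 * (t : ℝ) ^ (11 / 6 : ℝ) *
            ∑ i, ∑ j, μ i * P i j * (∑ l : Fin n, |f j l - f i l|) ^ 2 :=
  stWrap_75 stCore_all_94

end Vale.Agent.P125.Poly
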