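import Vale.Agent.P125.PolyZ94.All_94

set_option linter.unusedSectionVars false
set_option linter.unusedVariables false

/-! # P125 Poly: the polynomial rate for the James (quadratic variation) norm, helper94
(idea of helper91: own measure bound for the total variation of `h |h|`) -/

namespace Vale.Agent.P125.Poly

open scoped BigOperators
open Vale.Agent.P125.Dich

lemma sq_sub_le_psi_94 (a b : ℝ) : (b - a) ^ 2 ≤ 2 * abs (b * abs b - a * abs a) := by
  rcases le_total 0 a with ha | ha <;> rcases le_total 0 b with hb | hb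
  · rw [abs_of_nonneg ha, abs_of_nonneg hb]
    rcases le_total a b with h | h
    · rw [abs_of_nonneg (by nlinarith)]; nlinarith
    · rw [abs_of_nonpos (by nlinarith)]; nlinarith
  · rw [abs_of_nonneg ha, abs_of_nonpos hb]
    rw [abs_of_nonpos (by nlinarith [sq_nonneg a, sq_nonneg b])]; nlinarith [sq_nonneg (a + b)]
  · rw [abs_of_nonpos ha, abs_of_nonneg hb]
    rw [abs_of_nonneg (by nlinarith [sq_nonneg a, sq_nonneg b])]; nlinarith [sq_nonneg (a + b)]
  · rw [abs_of_nonpos ha, abs_of_nonpos hb]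
    rcases le_total a b with h | h
    · rw [abs_of_nonneg (by nlinarith)]; nlinarith
    · rw [abs_of_nonpos (by nlinarith)]; nlinarith

lemma psi_le_94 (a b : ℝ) :
    abs (b * abs b - a * abs a) ≤ 4 * (|b - a| * |b|) + a ^ 2 - b ^ 2 := by
  rw [abs_le]
  rcases le_total 0 a with ha | ha <;> rcases le_total 0 b with hb | hb <;>
    rcases le_total a b with h | h
  · rw [abs_of_nonneg ha, abs_of_nonneg hb, abs_of_nonneg (sub_nonneg.mpr h)]
    constructor <;> nlinarith [sq_nonneg (b - a), mul_nonneg (sub_nonneg.mpr h) hb]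
  · rw [abs_of_nonneg ha, abs_of_nonneg hb, abs_of_nonpos (sub_nonpos.mpr h)]
    constructor <;> nlinarith [sq_nonneg (b - a), mul_nonneg (sub_nonneg.mpr h) hb]
  · rw [abs_of_nonneg ha, abs_of_nonpos hb, abs_of_nonneg (sub_nonneg.mpr h)]
    have hb0 : b = 0 := le_antisymm hb (ha.trans h)
    have ha0 : a = 0 := le_antisymm (h.trans hb) ha
    subst hb0; subst ha0
    constructor <;> norm_num
  · rw [abs_of_nonneg ha, abs_of_nonpos hb, abs_of_nonpos (sub_nonpos.mpr h)]
    constructor <;> nlinarith [sq_nonneg (b - a), mul_nonneg ha (neg_nonneg.mpr hb), sq_nonneg a,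
      sq_nonneg b]
  · rw [abs_of_nonpos ha, abs_of_nonneg hb, abs_of_nonneg (sub_nonneg.mpr h)]
    constructor <;> nlinarith [sq_nonneg (b - a), mul_nonneg hb (neg_nonneg.mpr ha), sq_nonneg a,
      sq_nonneg b]
  · rw [abs_of_nonpos ha, abs_of_nonneg hb, abs_of_nonpos (sub_nonpos.mpr h)]
    have hb0 : b = 0 := le_antisymm (h.trans ha) hb
    have ha0 : a = 0 := le_antisymm ha (hb.trans h)
    subst hb0; subst ha0
    constructor <;> norm_num
  · rw [abs_of_nonpos ha, abs_of_nonpos hb, abs_of_nonneg (sub_nonneg.mpr h)]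
    constructor <;> nlinarith [sq_nonneg (b - a), mul_nonneg (sub_nonneg.mpr h) (neg_nonneg.mpr hb),
      mul_nonneg (sub_nonneg.mpr h) (neg_nonneg.mpr ha)]
  · rw [abs_of_nonpos ha, abs_of_nonpos hb, abs_of_nonpos (sub_nonpos.mpr h)]
    constructor <;> nlinarith [sq_nonneg (b - a), mul_nonneg (sub_nonneg.mpr h) (neg_nonneg.mpr hb),
      mul_nonneg (sub_nonneg.mpr h) (neg_nonneg.mpr ha)]

/-- own measure bound for the quadratic variation along a monotone sequence of cut points -/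
lemma james_pt_94 (G : ℕ → ℝ) (hG0 : G 0 = 0) (p : ℕ → ℕ) (hp : Monotone p) (m : ℕ) :
    ∑ r ∈ Finset.range m, (G (p (r + 1)) - G (p r)) ^ 2 ≤
      8 * ∑ k ∈ Finset.range (p m), |G (k + 1) - G k| * |G (k + 1)| := by
  obtain ⟨H, hH⟩ : ∃ H : ℕ → ℝ, H = fun k => G k * abs (G k) := ⟨_, rfl⟩
  obtain ⟨T, hT⟩ : ∃ T : ℕ → ℝ, T = fun j => ∑ k ∈ Finset.range j, |H (k + 1) - H k| := ⟨_, rfl⟩
  have hTs : ∀ j, T (j + 1) = T j + |H (j + 1) - H j| := by
    intro j
    rw [hT]
    exact Finset.sum_range_succ _ _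
  have hTmono : ∀ a b, a ≤ b → |H b - H a| ≤ T b - T a := by
    intro a b hab
    induction b, hab using Nat.le_induction with
    | base => simp
    | succ b hab ih =>
      have h1 : |H (b + 1) - H a| ≤ |H (b + 1) - H b| + |H b - H a| := abs_sub_le _ _ _
      have h2 := hTs b
      linarith
  have h1 : ∑ r ∈ Finset.range m, (G (p (r + 1)) - G (p r)) ^ 2 ≤
      ∑ r ∈ Finset.range m, 2 * (T (p (r + 1)) - T (p r)) := by
    refine Finset.sum_le_sum fun r _ => ?_
    have a1 := sq_sub_le_psi_94 (G (p r)) (G (p (r + 1)))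
    have a2 := hTmono (p r) (p (r + 1)) (hp (Nat.le_succ r))
    rw [hH] at a2
    linarith
  have h2 : ∑ r ∈ Finset.range m, 2 * (T (p (r + 1)) - T (p r)) = 2 * (T (p m) - T (p 0)) := by
    rw [← Finset.mul_sum, Finset.sum_range_sub (fun r => T (p r))]
  have hT0 : 0 ≤ T (p 0) := by
    rw [hT]
    exact Finset.sum_nonneg fun _ _ => abs_nonneg _
  have hTle : ∀ j, T j ≤
      4 * ∑ k ∈ Finset.range j, |G (k + 1) - G k| * |G (k + 1)| - G j ^ 2 := by
    intro j
    induction j with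
    | zero => rw [hT]; simp [hG0]
    | succ j ih =>
      rw [hTs j, Finset.sum_range_succ]
      have a3 := psi_le_94 (G j) (G (j + 1))
      have a4 : |H (j + 1) - H j| = abs (G (j + 1) * abs (G (j + 1)) - G j * abs (G j)) := by rw [hH]
      rw [a4]
      linarith
  have h3 := hTle (p m)
  nlinarith [sq_nonneg (G (p m))]

lemma G_succ_sub_94 {n : ℕ} (v : Fin n → ℝ) (k : Fin n) :
    (∑ l : Fin n, if l.val < k.val + 1 then v l else 0) -
      (∑ l : Fin n, if l.val < k.val then v l else 0) = v k := by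
  rw [← Finset.sum_sub_distrib]
  rw [Finset.sum_eq_single k]
  · simp
  · intro l _ hl
    have hne : l.val ≠ k.val := fun h => hl (Fin.ext h)
    by_cases h : l.val < k.val
    · rw [if_pos h, if_pos (by omega)]; ring
    · rw [if_neg h, if_neg (by omega)]; ring
  · intro h
    exact absurd (Finset.mem_univ k) h

/-- the same for prefix sums of a vector `v : Fin n → ℝ` -/
lemma james_vec_94 {n : ℕ} (v : Fin n → ℝ) (p : ℕ → ℕ) (hp : Monotone p) (m : ℕ) :
    ∑ r ∈ Finset.range m, ((∑ l : Fin n, if l.val < p (r + 1) then v l else 0) -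
        (∑ l : Fin n, if l.val < p r then v l else 0)) ^ 2 ≤
      8 * ∑ k : Fin n, |v k| * |∑ i : Fin n, if i ≤ k then v i else 0| := by
  obtain ⟨G, hG⟩ : ∃ G : ℕ → ℝ, G = fun k => ∑ l : Fin n, if l.val < k then v l else 0 :=
    ⟨_, rfl⟩
  have hG0 : G 0 = 0 := by rw [hG]; simp
  have h1 := james_pt_94 G hG0 p hp m
  have hbig : ∀ k, n ≤ k → |G (k + 1) - G k| * |G (k + 1)| = 0 := by
    intro k hk
    have : G (k + 1) = G k := by
      rw [hG]
      refine Finset.sum_congr rfl fun l _ => ?_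
      have hl := l.isLt
      rw [if_pos (by omega), if_pos (by omega)]
    rw [this]
    simp
  have h2 : ∑ k ∈ Finset.range (p m), |G (k + 1) - G k| * |G (k + 1)| ≤
      ∑ k ∈ Finset.range n, |G (k + 1) - G k| * |G (k + 1)| := by
    calc ∑ k ∈ Finset.range (p m), |G (k + 1) - G k| * |G (k + 1)|
        ≤ ∑ k ∈ Finset.range (max (p m) n), |G (k + 1) - G k| * |G (k + 1)| := by
          refine Finset.sum_le_sum_of_subset_of_nonneg ?_ ?_
          · exact Finset.range_subset_range.mpr (le_max_left _ _)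
          · intro k _ _
            exact mul_nonneg (abs_nonneg _) (abs_nonneg _)
      _ = ∑ k ∈ Finset.range n, |G (k + 1) - G k| * |G (k + 1)| := by
          symm
          refine Finset.sum_subset (Finset.range_subset_range.mpr (le_max_right _ _)) ?_
          intro k _ hk
          exact hbig k (by simpa using hk)
  have h3 : ∑ k ∈ Finset.range n, |G (k + 1) - G k| * |G (k + 1)| =
      ∑ k : Fin n, |v k| * |∑ i : Fin n, if i ≤ k then v i else 0| := by
    rw [Finset.sum_range]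
    refine Finset.sum_congr rfl fun k _ => ?_
    have e1 : G (k.val + 1) - G k.val = v k := by
      rw [hG]
      exact G_succ_sub_94 v k
    have e2 : G (k.val + 1) = ∑ i : Fin n, if i ≤ k then v i else 0 := by
      rw [hG]
      refine Finset.sum_congr rfl fun i _ => ?_
      by_cases h : i ≤ k
      · rw [if_pos h, if_pos (Nat.lt_succ_of_le h)]
      · rw [if_neg h, if_neg (fun hh => h (Nat.le_of_lt_succ hh))]
    rw [e1, e2]
  have h4 : ∑ r ∈ Finset.range m, ((∑ l : Fin n, if l.val < p (r + 1) then v l else 0) -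
        (∑ l : Fin n, if l.val < p r then v l else 0)) ^ 2 =
      ∑ r ∈ Finset.range m, (G (p (r + 1)) - G (p r)) ^ 2 := by
    rw [hG]
  rw [h4, ← h3]
  linarith

theorem stQ_all_94 : StQ := by
  have hlib : StLib := stLib_16
  have hs : StSmall := stSmall_93
  have hown : StOwn := stOwn_33
  have hownT : StOwnT := stOwnT_27 hown
  have ht1 : StTriv1 := stTriv1_69 hs
  have ht2 : StTriv2 := stTriv2_85 hs
  have hsq : StSqrt := stSqrt_51
  have hrem : StRem := stRem_94 hs ht1
  have hblk : StBlk := stBlk_89 hlib hs ht2 hsq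
  have hdual : StDual := stDual_67
  have hdown : StDown := stDown_73 hownT hs
  have hback : StBack := stBack_88 hs
  have hen : StEn := stEn_94 hs
  have hbb : StBB := stBB_38 hs
  have hxi : StXi := stXi_87 hs hen hbb
  have hr : StR := stR_14 hs hdual hdown hback hxi
  exact stQ_64 hs hrem hblk hr

/-- the own measure quantity (second half of the proof of `stTwo_10`, helper10) -/
theorem ownW_94 {S : Type} [Fintype S] [DecidableEq S] {μ : S → ℝ} {P : Matrix S S ℝ}
    (hc : IsChain μ P) (hL : Lib μ P) {n : ℕ} (f : S → Fin n → ℝ) (t : ℕ) :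
    ∑ k, ∑ x, ∑ y, μ x * (P ^ t) x y * (|f y k - f x k| * |F f k y - F f k x|) ≤
      (t : ℝ) * U μ P f + 2 * ∑ r ∈ Finset.range t, Qsum μ P f r := by
  have hA : ∀ k, ∑ x, ∑ y, μ x * (P ^ t) x y * (|f y k - f x k| * |F f k y - F f k x|) ≤
      (t : ℝ) * (∑ a, ∑ b, μ a * P a b * (|f b k - f a k| * |F f k b - F f k a|))
        + 2 * ∑ r ∈ Finset.range t, Qk μ P f r k := by
    intro k
    have h := Poly41.stepA hc (fun x => f x k) (F f k) t
    simp only [Qk_eq_10 hc] at h
    exact h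
  have hD : ∑ k, ∑ a, ∑ b, μ a * P a b * (|f b k - f a k| * |F f k b - F f k a|) ≤ U μ P f := by
    unfold U
    rw [Finset.sum_comm]
    refine Finset.sum_le_sum fun a _ => ?_
    rw [Finset.sum_comm]
    refine Finset.sum_le_sum fun b _ => ?_
    rw [← Finset.mul_sum]
    refine mul_le_mul_of_nonneg_left ?_ (mul_nonneg (hc.1 a) (hc.2.2.1 a b))
    have h2 : ∑ k, |f b k - f a k| * |F f k b - F f k a| ≤ ∑ k, |f b k - f a k| * ell f a b :=
      Finset.sum_le_sum fun k _ =>
        mul_le_mul_of_nonneg_left (F_sub_le_10 f k a b) (abs_nonneg _)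
    refine h2.trans (le_of_eq ?_)
    rw [← Finset.sum_mul, sq]
    rfl
  refine (Finset.sum_le_sum fun k _ => hA k).trans ?_
  rw [Finset.sum_add_distrib, ← Finset.mul_sum, ← Finset.mul_sum]
  have e : ∑ k, ∑ r ∈ Finset.range t, Qk μ P f r k = ∑ r ∈ Finset.range t, Qsum μ P f r := by
    rw [Finset.sum_comm]
    rfl
  rw [e]
  have := mul_le_mul_of_nonneg_left hD (Nat.cast_nonneg t : (0 : ℝ) ≤ t)
  linarith

theorem ownCore_94 {S : Type} [Fintype S] [DecidableEq S] {μ : S → ℝ} {P : Matrix S S ℝ}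
    (hc : IsChain μ P) {n : ℕ} (f : S → Fin n → ℝ) (t : ℕ) (ht : 1 ≤ t) :
    2 * ∑ k, ∑ x, ∑ y, μ x * (P ^ t) x y * (|f y k - f x k| * |F f k y - F f k x|) ≤
      22 * (t : ℝ) ^ (11 / 6 : ℝ) * U μ P f := by
  have hL := stLib_16 S μ P hc
  have hU : 0 ≤ U μ P f := (stSmall_93 S μ P hc hL n f).2.2.2.2.2.2.1
  obtain ⟨τ, hτ1, hτa, hτb⟩ := Poly33.exists_tau t ht
  have hQ : ∀ t' : ℕ, t' ≤ t → Qsum μ P f t' ≤ 5 * (t : ℝ) ^ (5 / 6 : ℝ) * U μ P f := by
    intro t' ht'
    refine le_trans (stQ_all_94 S μ P hc hL n f τ t' hτ1) ?_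
    exact mul_le_mul_of_nonneg_right (core_scalar33 t τ t' ht hτ1 hτa hτb ht') hU
  have hW := ownW_94 hc hL f t
  have hsum : ∑ r ∈ Finset.range t, Qsum μ P f r ≤
      ∑ _r ∈ Finset.range t, (5 * (t : ℝ) ^ (5 / 6 : ℝ) * U μ P f) :=
    Finset.sum_le_sum fun r hr => hQ r (le_of_lt (Finset.mem_range.mp hr))
  rw [Finset.sum_const, Finset.card_range, nsmul_eq_mul] at hsum
  exact Poly33.final_bound' t ht (U μ P f) (5 * (t : ℝ) ^ (5 / 6 : ℝ) * U μ P f) _ hU le_rfl
    (by linarith)

/-- polynomial rate for the James (quadratic variation) norm of the prefix sums; the cut points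
`p i j 0 ≤ p i j 1 ≤ ...` and their number may depend on the pair of states in any way -/
theorem james_all_94 : ∀ t : ℕ, 1 ≤ t →
    ∀ (n : ℕ) (S : Type) [Fintype S] [DecidableEq S] (μ : S → ℝ) (P : Matrix S S ℝ),
      (∀ i, 0 ≤ μ i) → ∑ i, μ i = 1 → (∀ i j, 0 ≤ P i j) → (∀ i, ∑ j, P i j = 1) →
      (∀ i j, μ i * P i j = μ j * P j i) → ∀ f : S → Fin n → ℝ,
      ∀ (m : ℕ) (p : S → S → ℕ → ℕ), (∀ i j, Monotone (p i j)) →
        ∑ i, ∑ j, μ i * (P ^ t) i j *
            ∑ r ∈ Finset.range m,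
              ((∑ l : Fin n, if l.val < p i j (r + 1) then f j l - f i l else 0) -
                (∑ l : Fin n, if l.val < p i j r then f j l - f i l else 0)) ^ 2 ≤
          88 * (t : ℝ) ^ (11 / 6 : ℝ) *
            ∑ i, ∑ j, μ i * P i j * (∑ l : Fin n, |f j l - f i l|) ^ 2 := by
  intro t ht n S _ _ μ P h0 h1 h2 h3 h4 f m p hp
  have hc : IsChain μ P := ⟨h0, h1, h2, h3, h4⟩
  have hL := stLib_16 S μ P hc
  have hcore := ownCore_94 hc f t ht
  have hpt : ∀ x y, ∑ r ∈ Finset.range m,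
      ((∑ l : Fin n, if l.val < p x y (r + 1) then f y l - f x l else 0) -
        (∑ l : Fin n, if l.val < p x y r then f y l - f x l else 0)) ^ 2 ≤
      8 * ∑ k, (|f y k - f x k| * |F f k y - F f k x|) := by
    intro x y
    have h := james_vec_94 (fun l => f y l - f x l) (p x y) (hp x y) m
    simp only [F_sub_10]
    exact h
  have e : 8 * ∑ k, ∑ x, ∑ y, μ x * (P ^ t) x y * (|f y k - f x k| * |F f k y - F f k x|)
      = ∑ x, ∑ y, μ x * (P ^ t) x y * (8 * ∑ k, (|f y k - f x k| * |F f k y - F f k x|)) := by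
    rw [Finset.sum_comm, Finset.mul_sum]
    refine Finset.sum_congr rfl fun x _ => ?_
    rw [Finset.sum_comm, Finset.mul_sum]
    refine Finset.sum_congr rfl fun y _ => ?_
    rw [← Finset.mul_sum]
    ring
  have hstep1 : ∑ x, ∑ y, μ x * (P ^ t) x y * ∑ r ∈ Finset.range m,
      ((∑ l : Fin n, if l.val < p x y (r + 1) then f y l - f x l else 0) -
        (∑ l : Fin n, if l.val < p x y r then f y l - f x l else 0)) ^ 2 ≤
      8 * ∑ k, ∑ x, ∑ y, μ x * (P ^ t) x y * (|f y k - f x k| * |F f k y - F f k x|) := by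
    rw [e]
    refine Finset.sum_le_sum fun x _ => Finset.sum_le_sum fun y _ => ?_
    exact mul_le_mul_of_nonneg_left (hpt x y) (mul_nonneg (hL.mu_nonneg x) (hL.pw_nonneg t x y))
  have hUeq : U μ P f = ∑ i, ∑ j, μ i * P i j * (∑ l : Fin n, |f j l - f i l|) ^ 2 := rfl
  rw [← hUeq]
  linarith

end Vale.Agent.P125.Poly
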